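import Mathlib

namespace Vale.Agent.Results.P295.SeparatedVariables

open MvPolynomial

/-- `f` is a coordinate of the polynomial ring over `ℂ` in the variables indexed by `σ`:
some `ℂ`-algebra automorphism of the ring sends a variable to `f`. -/
def IsCoordinate {σ : Type} (f : MvPolynomial σ ℂ) : Prop :=
  ∃ (φ : MvPolynomial σ ℂ ≃ₐ[ℂ] MvPolynomial σ ℂ) (i : σ), φ (X i) = f

/-- `f` in `ℂ[x_1, ..., x_n]` is an `m`-stable coordinate: it is a coordinate of the polynomial
ring in the `n + m` variables `x_1, ..., x_n, w_1, ..., w_m` (indexed by `Fin n ⊕ Fin m`). -/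
def IsStableCoordinate {n : ℕ} (m : ℕ) (f : MvPolynomial (Fin n) ℂ) : Prop :=
  IsCoordinate (rename (Sum.inl : Fin n → Fin n ⊕ Fin m) f)

section Chain

variable {τ : Type} [Fintype τ]

/-- Chain rule for a `ℂ`-algebra endomorphism of a polynomial ring. -/
lemma chain_rule (ψ : MvPolynomial τ ℂ →ₐ[ℂ] MvPolynomial τ ℂ) (j : τ) (h : MvPolynomial τ ℂ) :
    pderiv j (ψ h) = ∑ i, ψ (pderiv i h) * pderiv j (ψ (X i)) := by
  classical
  induction h using MvPolynomial.induction_on with
  | C a => simp
  | add p q hp hq => simp [hp, hq, add_mul, Finset.sum_add_distrib]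
  | mul_X p k hp =>
    simp only [map_mul, Derivation.leibniz, smul_eq_mul, hp, map_add, pderiv_X]
    rw [Finset.mul_sum]
    have : ∀ i : τ, (ψ p * ψ ((Pi.single i 1 : τ → MvPolynomial τ ℂ) k)
          + ψ (X k) * ψ (pderiv i p)) * pderiv j (ψ (X i))
        = ψ (X k) * (ψ (pderiv i p) * pderiv j (ψ (X i)))
          + (if i = k then ψ p * pderiv j (ψ (X k)) else 0) := by
      intro i
      by_cases hik : i = k
      · subst hik
        simp
        ring
      · simp [hik, Ne.symm hik]
        ring
    rw [Finset.sum_congr rfl (fun i _ => this i), Finset.sum_add_distrib]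
    simp
    ring

lemma grad_of_coordinate {g : MvPolynomial τ ℂ} (hg : IsCoordinate g) :
    ∃ c : τ → MvPolynomial τ ℂ, ∑ i, c i * pderiv i g = 1 := by
  obtain ⟨φ, j, rfl⟩ := hg
  refine ⟨fun i => φ (pderiv j (φ.symm (X i))), ?_⟩
  have h := chain_rule (φ.symm : MvPolynomial τ ℂ →ₐ[ℂ] MvPolynomial τ ℂ) j (φ (X j))
  simp only [AlgEquiv.coe_toAlgHom, AlgEquiv.symm_apply_apply, pderiv_X_self] at h
  have h2 := congrArg φ h
  simp only [map_one, map_sum, map_mul, AlgEquiv.apply_symm_apply] at h2
  rw [h2]
  apply Finset.sum_congr rfl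
  intro i _
  ring

end Chain

/-- A stable coordinate has no critical point. -/
lemma no_critical_point {n m : ℕ} (f : MvPolynomial (Fin n) ℂ) (h : IsStableCoordinate m f)
    (x : Fin n → ℂ) : ∃ i, eval x (pderiv i f) ≠ 0 := by
  classical
  by_contra hcon
  push Not at hcon
  obtain ⟨c, hc⟩ := grad_of_coordinate h
  have h1 := congrArg (eval (Sum.elim x (fun _ : Fin m => (0 : ℂ)))) hc
  simp only [map_one, Fintype.sum_sum_type] at h1
  have hl : ∀ i : Fin n, eval (Sum.elim x (fun _ : Fin m => (0 : ℂ)))
      (pderiv (Sum.inl i) (rename (Sum.inl : Fin n → Fin n ⊕ Fin m) f)) = 0 := by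
    intro i
    rw [pderiv_rename Sum.inl_injective, eval_rename]
    have : (Sum.elim x (fun _ : Fin m => (0 : ℂ))) ∘ Sum.inl = x := by
      funext k; simp
    rw [this]
    exact hcon i
  have hr : ∀ k : Fin m, pderiv (Sum.inr k) (rename (Sum.inl : Fin n → Fin n ⊕ Fin m) f) = 0 := by
    intro k
    apply pderiv_eq_zero_of_notMem_vars
    intro hk
    have := vars_rename (Sum.inl : Fin n → Fin n ⊕ Fin m) f hk
    simp at this
  simp [hl, hr] at h1

lemma eval_pderiv_aeval {n : ℕ} (i j : Fin n) (q : Polynomial ℂ) (x : Fin n → ℂ) :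
    eval x (pderiv i (Polynomial.aeval (X j : MvPolynomial (Fin n) ℂ) q))
      = if i = j then q.derivative.eval (x j) else 0 := by
  classical
  rw [Derivation.map_aeval]
  by_cases hij : i = j
  · subst hij
    simp only [pderiv_X_self, smul_eq_mul, mul_one, if_true]
    have := Polynomial.aeval_algHom_apply (aeval x : MvPolynomial (Fin n) ℂ →ₐ[ℂ] ℂ)
      (X i : MvPolynomial (Fin n) ℂ) q.derivative
    rw [aeval_X] at this
    have e : eval x ((Polynomial.aeval (X i : MvPolynomial (Fin n) ℂ)) q.derivative)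
        = aeval x ((Polynomial.aeval (X i : MvPolynomial (Fin n) ℂ)) q.derivative) := by
      rw [← MvPolynomial.coe_aeval_eq_eval]; rfl
    rw [e, ← this, Polynomial.coe_aeval_eq_eval]
  · simp [pderiv_X_of_ne (Ne.symm hij), hij]

theorem result (n m : ℕ) (p : Fin n → Polynomial ℂ)
    (h : IsStableCoordinate m (∑ i, Polynomial.aeval (X i : MvPolynomial (Fin n) ℂ) (p i))) :
    IsCoordinate (∑ i, Polynomial.aeval (X i : MvPolynomial (Fin n) ℂ) (p i)) := by
  classical
  set f : MvPolynomial (Fin n) ℂ := ∑ i, Polynomial.aeval (X i : MvPolynomial (Fin n) ℂ) (p i)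
    with hf
  -- gradient at `x`
  have hgrad : ∀ (x : Fin n → ℂ) (i : Fin n),
      eval x (pderiv i f) = (p i).derivative.eval (x i) := by
    intro x i
    rw [hf, map_sum, map_sum]
    simp only [eval_pderiv_aeval]
    simp
  -- some derivative has no root
  have hnoroot : ∃ i, ∀ z : ℂ, (p i).derivative.eval z ≠ 0 := by
    by_contra hcon
    push Not at hcon
    choose x hx using hcon
    obtain ⟨i, hi⟩ := no_critical_point f h x
    exact hi (by rw [hgrad]; exact hx i)
  obtain ⟨i, hi⟩ := hnoroot
  -- the derivative of `p i` is a nonzero constant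
  have hdeg : ¬ 0 < (p i).derivative.degree := by
    intro hpos
    obtain ⟨z, hz⟩ := Complex.exists_root hpos
    exact hi z hz
  have hne : (p i).derivative ≠ 0 := by
    intro h0
    have := hi 0
    rw [h0] at this
    simp at this
  have hdeg0 : (p i).derivative.degree = 0 := by
    have h1 : (p i).derivative.degree ≤ 0 := not_lt.mp hdeg
    have h2 : (p i).derivative.degree ≠ ⊥ := Polynomial.degree_ne_bot.mpr hne
    rcases Polynomial.degree_le_zero_iff.mp h1 with h3
    rw [h3] at h2 ⊢
    by_cases hc : (p i).derivative.coeff 0 = 0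
    · rw [hc] at h2; simp at h2
    · exact Polynomial.degree_C hc
  set a : ℂ := (p i).derivative.coeff 0 with ha
  have hderiv : (p i).derivative = Polynomial.C a := Polynomial.eq_C_of_degree_eq_zero hdeg0
  have ha0 : a ≠ 0 := by
    intro h0
    rw [h0, Polynomial.C_0] at hderiv
    exact hne hderiv
  -- `p i = C b + C a * X`
  have hpi : ∃ b : ℂ, p i = Polynomial.C b + Polynomial.C a * Polynomial.X := by
    have hd : (p i - Polynomial.C a * Polynomial.X).derivative = 0 := by
      rw [Polynomial.derivative_sub, hderiv]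
      simp
    have := Polynomial.derivative_eq_zero.mp hd
    have h2 := Polynomial.eq_C_of_natDegree_eq_zero this
    refine ⟨(p i - Polynomial.C a * Polynomial.X).coeff 0, ?_⟩
    rw [← h2]
    ring
  obtain ⟨b, hb⟩ := hpi
  -- the part of `f` not involving `x_i`
  set hrest : MvPolynomial (Fin n) ℂ :=
    C b + ∑ j ∈ Finset.univ.erase i, Polynomial.aeval (X j : MvPolynomial (Fin n) ℂ) (p j)
    with hrest_def
  have hfdecomp : f = C a * X i + hrest := by
    rw [hf, hrest_def, ← Finset.add_sum_erase Finset.univ _ (Finset.mem_univ i), hb]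
    simp
    ring
  have hfix : ∀ u : Fin n → MvPolynomial (Fin n) ℂ, (∀ j, j ≠ i → u j = X j) →
      aeval u hrest = hrest := by
    intro u hu
    rw [hrest_def, map_add, map_sum]
    congr 1
    · simp
    · apply Finset.sum_congr rfl
      intro j hj
      have hji : j ≠ i := Finset.ne_of_mem_erase hj
      have := Polynomial.aeval_algHom_apply (aeval u : MvPolynomial (Fin n) ℂ →ₐ[ℂ] _)
        (X j : MvPolynomial (Fin n) ℂ) (p j)
      rw [← this, aeval_X, hu j hji]
  set s : Fin n → MvPolynomial (Fin n) ℂ := Function.update X i f with hs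
  set t : Fin n → MvPolynomial (Fin n) ℂ := Function.update X i (C a⁻¹ * (X i - hrest)) with ht
  have hs_fix : ∀ j, j ≠ i → s j = X j := fun j hj => by rw [hs, Function.update_of_ne hj]
  have ht_fix : ∀ j, j ≠ i → t j = X j := fun j hj => by rw [ht, Function.update_of_ne hj]
  have hsi : s i = f := by rw [hs, Function.update_self]
  have hti : t i = C a⁻¹ * (X i - hrest) := by rw [ht, Function.update_self]
  have hCa : (C a⁻¹ : MvPolynomial (Fin n) ℂ) * C a = 1 := by
    rw [← C_mul, inv_mul_cancel₀ ha0, C_1]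
  have h1 : (aeval s).comp (aeval t) = AlgHom.id ℂ (MvPolynomial (Fin n) ℂ) := by
    apply MvPolynomial.algHom_ext
    intro k
    simp only [AlgHom.comp_apply, aeval_X, AlgHom.id_apply]
    by_cases hk : k = i
    · subst hk
      rw [hti, map_mul, map_sub, aeval_X, hsi, hfix s hs_fix, aeval_C]
      rw [hfdecomp]
      simp only [algebraMap_eq, add_sub_cancel_right]
      rw [← mul_assoc, hCa, one_mul]
    · rw [ht_fix k hk, aeval_X, hs_fix k hk]
  have h2 : (aeval t).comp (aeval s) = AlgHom.id ℂ (MvPolynomial (Fin n) ℂ) := by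
    apply MvPolynomial.algHom_ext
    intro k
    simp only [AlgHom.comp_apply, aeval_X, AlgHom.id_apply]
    by_cases hk : k = i
    · subst hk
      rw [hsi, hfdecomp, map_add, map_mul, aeval_X, hfix t ht_fix, aeval_C, hti]
      simp only [algebraMap_eq]
      rw [← mul_assoc, mul_comm (C a) (C a⁻¹), hCa, one_mul]
      ring
    · rw [hs_fix k hk, aeval_X, ht_fix k hk]
  refine ⟨AlgEquiv.ofAlgHom (aeval s) (aeval t) h1 h2, i, ?_⟩
  simp only [AlgEquiv.ofAlgHom_apply, aeval_X]
  exact hsi

end Vale.Agent.Results.P295.SeparatedVariables
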