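import Vale.Agent.Results.P295.SeparatedVariables

/-!
P295 (stable coordinate conjecture), plain form of the hand-in `SeparatedVariables`:
the same theorem, stated with the definition of the problem written out and with no
definitions of ours.

`R_n = ℂ[x_1, ..., x_n]` is `MvPolynomial (Fin n) ℂ` and `x_1` is `X 0`.  The ring
`R_n[w_1, ..., w_m]` is `MvPolynomial (Fin n ⊕ Fin m) ℂ`, with `x_i = X (Sum.inl i)` and
`w_j = X (Sum.inr j)`; a polynomial `f` of `R_n` is viewed in it as `rename Sum.inl f`.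

Theorem: let `f = p_1(x_1) + ... + p_n(x_n)` with univariate polynomials `p_i`.  If some
`ℂ`-algebra automorphism of `R_n[w_1, ..., w_m]` sends `f` to `x_1`, then some `ℂ`-algebra
automorphism of `R_n` sends `f` to `x_1`.
-/

namespace Vale.Agent.Results.P295.SeparatedVariablesPlain

open MvPolynomial

theorem result (n m : ℕ) (hn : 0 < n) (p : Fin n → Polynomial ℂ) :
    (∃ φ : MvPolynomial (Fin n ⊕ Fin m) ℂ ≃ₐ[ℂ] MvPolynomial (Fin n ⊕ Fin m) ℂ,
      φ (rename (Sum.inl : Fin n → Fin n ⊕ Fin m)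
          (∑ i, Polynomial.aeval (X i : MvPolynomial (Fin n) ℂ) (p i)))
        = X (Sum.inl (⟨0, hn⟩ : Fin n))) →
    ∃ ψ : MvPolynomial (Fin n) ℂ ≃ₐ[ℂ] MvPolynomial (Fin n) ℂ,
      ψ (∑ i, Polynomial.aeval (X i : MvPolynomial (Fin n) ℂ) (p i))
        = X (⟨0, hn⟩ : Fin n) := by
  rintro ⟨φ, hφ⟩
  have hst : Vale.Agent.Results.P295.SeparatedVariables.IsStableCoordinate m
      (∑ i, Polynomial.aeval (X i : MvPolynomial (Fin n) ℂ) (p i)) := by
    refine ⟨φ.symm, Sum.inl (⟨0, hn⟩ : Fin n), ?_⟩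
    rw [← hφ, AlgEquiv.symm_apply_apply]
  obtain ⟨χ, i, hχ⟩ := Vale.Agent.Results.P295.SeparatedVariables.result n m p hst
  refine ⟨χ.symm.trans (renameEquiv ℂ (Equiv.swap i (⟨0, hn⟩ : Fin n))), ?_⟩
  rw [AlgEquiv.trans_apply, ← hχ, AlgEquiv.symm_apply_apply]
  simp

end Vale.Agent.Results.P295.SeparatedVariablesPlain
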