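import Vale.Agent.Results.P295.SeparatedVariables

/-!
P295 (stable coordinate conjecture): a class of polynomials strictly larger than the
polynomials with separated variables of the hand-in `SeparatedVariables`.

Variables: `x_1, ..., x_k` and `y_1, ..., y_l`; the polynomial ring `ℂ[x, y]` in these
`k + l` variables is `MvPolynomial (Fin k ⊕ Fin l) ℂ`, with `x_j = X (Sum.inl j)` and
`y_i = X (Sum.inr i)`.  The ring `ℂ[x, y][w_1, ..., w_m]` is
`MvPolynomial ((Fin k ⊕ Fin l) ⊕ Fin m) ℂ`, and a polynomial `f` of `ℂ[x, y]` is viewed in it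
as `rename Sum.inl f`.

Theorem: let `g` be a polynomial in `x_1, ..., x_k` with a critical point `a` (all first-order
derivatives of `g` vanish at `a`), let `p_1, ..., p_l` be univariate polynomials, and let
`f = g(x) + p_1(y_1) + ... + p_l(y_l)`.  If some `ℂ`-algebra automorphism of
`ℂ[x, y][w_1, ..., w_m]` sends `f` to one of the variables, then some `ℂ`-algebra
automorphism of `ℂ[x, y]` sends `f` to one of the variables.

Proof: a coordinate of a polynomial ring has no critical point (chain rule), hence neither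
has `f`.  If no `p_i` had a derivative without roots, the point `(a, z)` with `z_i` a root of
the derivative of `p_i` would be a critical point of `f`.  So some `p_i` has degree one, and
`f = c * y_i + (a polynomial not involving y_i)` with `c ≠ 0`, which is a coordinate.
-/

namespace Vale.Agent.Results.P295.SingularPlusSeparated

open MvPolynomial Vale.Agent.Results.P295.SeparatedVariables

section Aux

variable {τ : Type} [Fintype τ]

/-- A polynomial that becomes a coordinate after adjoining `m` new variables has no critical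
point. -/
lemma no_crit {m : ℕ} (f : MvPolynomial τ ℂ)
    (h : IsCoordinate (rename (Sum.inl : τ → τ ⊕ Fin m) f)) (x : τ → ℂ) :
    ∃ i, eval x (pderiv i f) ≠ 0 := by
  classical
  by_contra hcon
  push Not at hcon
  obtain ⟨c, hc⟩ := grad_of_coordinate h
  have h1 := congrArg (eval (Sum.elim x (fun _ : Fin m => (0 : ℂ)))) hc
  simp only [map_one, Fintype.sum_sum_type] at h1
  have hl : ∀ i : τ, eval (Sum.elim x (fun _ : Fin m => (0 : ℂ)))
      (pderiv (Sum.inl i) (rename (Sum.inl : τ → τ ⊕ Fin m) f)) = 0 := by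
    intro i
    rw [pderiv_rename Sum.inl_injective, eval_rename]
    have : (Sum.elim x (fun _ : Fin m => (0 : ℂ))) ∘ Sum.inl = x := by
      funext k; simp
    rw [this]
    exact hcon i
  have hr : ∀ k : Fin m, pderiv (Sum.inr k) (rename (Sum.inl : τ → τ ⊕ Fin m) f) = 0 := by
    intro k
    apply pderiv_eq_zero_of_notMem_vars
    intro hk
    have := vars_rename (Sum.inl : τ → τ ⊕ Fin m) f hk
    simp at this
  simp [hl, hr] at h1

omit [Fintype τ] in
/-- Derivatives of a univariate polynomial in one of the variables. -/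
lemma eval_pderiv_aeval' [DecidableEq τ] (i j : τ) (q : Polynomial ℂ) (x : τ → ℂ) :
    eval x (pderiv i (Polynomial.aeval (X j : MvPolynomial τ ℂ) q))
      = if i = j then q.derivative.eval (x j) else 0 := by
  rw [Derivation.map_aeval]
  by_cases hij : i = j
  · subst hij
    simp only [pderiv_X_self, smul_eq_mul, mul_one, if_true]
    have := Polynomial.aeval_algHom_apply (aeval x : MvPolynomial τ ℂ →ₐ[ℂ] ℂ)
      (X i : MvPolynomial τ ℂ) q.derivative
    rw [aeval_X] at this
    have e : eval x ((Polynomial.aeval (X i : MvPolynomial τ ℂ)) q.derivative)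
        = aeval x ((Polynomial.aeval (X i : MvPolynomial τ ℂ)) q.derivative) := by
      rw [← MvPolynomial.coe_aeval_eq_eval]; rfl
    rw [e, ← this, Polynomial.coe_aeval_eq_eval]
  · simp [pderiv_X_of_ne (Ne.symm hij), hij]

end Aux

theorem result (k l m : ℕ) (g : MvPolynomial (Fin k) ℂ) (a : Fin k → ℂ)
    (ha : ∀ j, eval a (pderiv j g) = 0) (p : Fin l → Polynomial ℂ) :
    (∃ (φ : MvPolynomial ((Fin k ⊕ Fin l) ⊕ Fin m) ℂ ≃ₐ[ℂ]
          MvPolynomial ((Fin k ⊕ Fin l) ⊕ Fin m) ℂ) (v : (Fin k ⊕ Fin l) ⊕ Fin m),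
      φ (rename (Sum.inl : Fin k ⊕ Fin l → (Fin k ⊕ Fin l) ⊕ Fin m)
          (rename (Sum.inl : Fin k → Fin k ⊕ Fin l) g
            + ∑ i, Polynomial.aeval (X (Sum.inr i) : MvPolynomial (Fin k ⊕ Fin l) ℂ) (p i)))
        = X v) →
    ∃ (ψ : MvPolynomial (Fin k ⊕ Fin l) ℂ ≃ₐ[ℂ] MvPolynomial (Fin k ⊕ Fin l) ℂ)
        (v : Fin k ⊕ Fin l),
      ψ (rename (Sum.inl : Fin k → Fin k ⊕ Fin l) g
            + ∑ i, Polynomial.aeval (X (Sum.inr i) : MvPolynomial (Fin k ⊕ Fin l) ℂ) (p i))
        = X v := by
  classical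
  rintro ⟨φ, v, hφ⟩
  set f : MvPolynomial (Fin k ⊕ Fin l) ℂ := rename (Sum.inl : Fin k → Fin k ⊕ Fin l) g
      + ∑ i, Polynomial.aeval (X (Sum.inr i) : MvPolynomial (Fin k ⊕ Fin l) ℂ) (p i) with hf
  have hcoord : IsCoordinate (rename (Sum.inl : Fin k ⊕ Fin l → (Fin k ⊕ Fin l) ⊕ Fin m) f) :=
    ⟨φ.symm, v, by rw [← hφ, AlgEquiv.symm_apply_apply]⟩
  -- the derivatives of `g` in the `y`-directions vanish
  have hgr : ∀ i : Fin l, pderiv (Sum.inr i) (rename (Sum.inl : Fin k → Fin k ⊕ Fin l) g) = 0 := by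
    intro i
    apply pderiv_eq_zero_of_notMem_vars
    intro hi
    have := vars_rename (Sum.inl : Fin k → Fin k ⊕ Fin l) g hi
    simp at this
  -- gradient of `f` at `x`
  have hgradl : ∀ (x : Fin k ⊕ Fin l → ℂ) (j : Fin k),
      eval x (pderiv (Sum.inl j) f) = eval (x ∘ Sum.inl) (pderiv j g) := by
    intro x j
    rw [hf, map_add, map_add, map_sum, map_sum, pderiv_rename Sum.inl_injective, eval_rename]
    simp only [eval_pderiv_aeval']
    simp
  have hgradr : ∀ (x : Fin k ⊕ Fin l → ℂ) (i : Fin l),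
      eval x (pderiv (Sum.inr i) f) = (p i).derivative.eval (x (Sum.inr i)) := by
    intro x i
    rw [hf, map_add, map_add, map_sum, map_sum, hgr i]
    simp only [eval_pderiv_aeval']
    simp
  -- some derivative has no root
  have hnoroot : ∃ i, ∀ z : ℂ, (p i).derivative.eval z ≠ 0 := by
    by_contra hcon
    push Not at hcon
    choose z hz using hcon
    obtain ⟨w, hw⟩ := no_crit f hcoord (Sum.elim a z)
    rcases w with j | i
    · apply hw
      rw [hgradl]
      have : (Sum.elim a z) ∘ Sum.inl = a := by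
        funext t; simp
      rw [this]
      exact ha j
    · apply hw
      rw [hgradr]
      exact hz i
  obtain ⟨i, hi⟩ := hnoroot
  -- the derivative of `p i` is a nonzero constant
  have hdeg : ¬ 0 < (p i).derivative.degree := by
    intro hpos
    obtain ⟨z, hz⟩ := Complex.exists_root hpos
    exact hi z hz
  have hne : (p i).derivative ≠ 0 := by
    intro h0
    have := hi 0
    rw [h0] at this
    simp at this
  have hdeg0 : (p i).derivative.degree = 0 := by
    have h1 : (p i).derivative.degree ≤ 0 := not_lt.mp hdeg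
    have h2 : (p i).derivative.degree ≠ ⊥ := Polynomial.degree_ne_bot.mpr hne
    rcases Polynomial.degree_le_zero_iff.mp h1 with h3
    rw [h3] at h2 ⊢
    by_cases hc : (p i).derivative.coeff 0 = 0
    · rw [hc] at h2; simp at h2
    · exact Polynomial.degree_C hc
  set c : ℂ := (p i).derivative.coeff 0 with hc
  have hderiv : (p i).derivative = Polynomial.C c := Polynomial.eq_C_of_degree_eq_zero hdeg0
  have hc0 : c ≠ 0 := by
    intro h0
    rw [h0, Polynomial.C_0] at hderiv
    exact hne hderiv
  -- `p i = C b + C c * X`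
  have hpi : ∃ b : ℂ, p i = Polynomial.C b + Polynomial.C c * Polynomial.X := by
    have hd : (p i - Polynomial.C c * Polynomial.X).derivative = 0 := by
      rw [Polynomial.derivative_sub, hderiv]
      simp
    have := Polynomial.derivative_eq_zero.mp hd
    have h2 := Polynomial.eq_C_of_natDegree_eq_zero this
    refine ⟨(p i - Polynomial.C c * Polynomial.X).coeff 0, ?_⟩
    rw [← h2]
    ring
  obtain ⟨b, hb⟩ := hpi
  -- the part of `f` not involving `y_i`
  set hrest : MvPolynomial (Fin k ⊕ Fin l) ℂ :=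
    rename (Sum.inl : Fin k → Fin k ⊕ Fin l) g + C b
      + ∑ j ∈ Finset.univ.erase i,
          Polynomial.aeval (X (Sum.inr j) : MvPolynomial (Fin k ⊕ Fin l) ℂ) (p j)
    with hrest_def
  have hfdecomp : f = C c * X (Sum.inr i) + hrest := by
    rw [hf, hrest_def, ← Finset.add_sum_erase Finset.univ _ (Finset.mem_univ i), hb]
    simp
    ring
  have hfix : ∀ u : Fin k ⊕ Fin l → MvPolynomial (Fin k ⊕ Fin l) ℂ,
      (∀ w, w ≠ Sum.inr i → u w = X w) → aeval u hrest = hrest := by
    intro u hu
    rw [hrest_def, map_add, map_add, map_sum]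
    congr 1
    · congr 1
      · rw [aeval_rename]
        have : u ∘ (Sum.inl : Fin k → Fin k ⊕ Fin l) = X ∘ Sum.inl := by
          funext t
          exact hu (Sum.inl t) (by simp)
        rw [this, rename_eq_aeval]
      · simp
    · apply Finset.sum_congr rfl
      intro j hj
      have hji : j ≠ i := Finset.ne_of_mem_erase hj
      have := Polynomial.aeval_algHom_apply (aeval u : MvPolynomial (Fin k ⊕ Fin l) ℂ →ₐ[ℂ] _)
        (X (Sum.inr j) : MvPolynomial (Fin k ⊕ Fin l) ℂ) (p j)
      rw [← this, aeval_X, hu (Sum.inr j) (by simpa using hji)]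
  set s : Fin k ⊕ Fin l → MvPolynomial (Fin k ⊕ Fin l) ℂ := Function.update X (Sum.inr i) f
    with hs
  set t : Fin k ⊕ Fin l → MvPolynomial (Fin k ⊕ Fin l) ℂ :=
    Function.update X (Sum.inr i) (C c⁻¹ * (X (Sum.inr i) - hrest)) with ht
  have hs_fix : ∀ w, w ≠ Sum.inr i → s w = X w := fun w hw => by
    rw [hs, Function.update_of_ne hw]
  have ht_fix : ∀ w, w ≠ Sum.inr i → t w = X w := fun w hw => by
    rw [ht, Function.update_of_ne hw]
  have hsi : s (Sum.inr i) = f := by rw [hs, Function.update_self]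
  have hti : t (Sum.inr i) = C c⁻¹ * (X (Sum.inr i) - hrest) := by rw [ht, Function.update_self]
  have hCc : (C c⁻¹ : MvPolynomial (Fin k ⊕ Fin l) ℂ) * C c = 1 := by
    rw [← C_mul, inv_mul_cancel₀ hc0, C_1]
  have h1 : (aeval s).comp (aeval t) = AlgHom.id ℂ (MvPolynomial (Fin k ⊕ Fin l) ℂ) := by
    apply MvPolynomial.algHom_ext
    intro w
    simp only [AlgHom.comp_apply, aeval_X, AlgHom.id_apply]
    by_cases hw : w = Sum.inr i
    · subst hw
      rw [hti, map_mul, map_sub, aeval_X, hsi, hfix s hs_fix, aeval_C]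
      rw [hfdecomp]
      simp only [algebraMap_eq, add_sub_cancel_right]
      rw [← mul_assoc, hCc, one_mul]
    · rw [ht_fix w hw, aeval_X, hs_fix w hw]
  have h2 : (aeval t).comp (aeval s) = AlgHom.id ℂ (MvPolynomial (Fin k ⊕ Fin l) ℂ) := by
    apply MvPolynomial.algHom_ext
    intro w
    simp only [AlgHom.comp_apply, aeval_X, AlgHom.id_apply]
    by_cases hw : w = Sum.inr i
    · subst hw
      rw [hsi, hfdecomp, map_add, map_mul, aeval_X, hfix t ht_fix, aeval_C, hti]
      simp only [algebraMap_eq]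
      rw [← mul_assoc, mul_comm (C c) (C c⁻¹), hCc, one_mul]
      ring
    · rw [hs_fix w hw, aeval_X, ht_fix w hw]
  refine ⟨(AlgEquiv.ofAlgHom (aeval s) (aeval t) h1 h2).symm, Sum.inr i, ?_⟩
  rw [AlgEquiv.symm_apply_eq]
  simp only [AlgEquiv.ofAlgHom_apply, aeval_X]
  exact hsi.symm

end Vale.Agent.Results.P295.SingularPlusSeparated
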